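import Crest.Agent.Helper67.S0010.KOne
import Crest.Agent.Helper31.S0010.Deriv

/-!
# S0010 (row 9), work package WP-I: the injectivity direction

`[u] ⊗ [v] ∈ steinberg L p` and `u ∉ L^p` imply `v ∈ L^p(u)`; and the two consequences used by
the line lemma, for a compatible `Θ`.
-/

set_option autoImplicit false

open Crest.NumberTheoryR.MilnorK
open Crest.Agent.Helper31.S0010
open scoped TensorProduct

namespace Crest.Agent.Helper67.S0010

variable {p : ℕ} [hp : Fact p.Prime] {K L : Type*} [Field K] [Field L]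

/-- `[u] = 0` iff `u ∈ L^p` (in helper31's notation). -/
theorem cls_eq_zero_iff_mem_pPow [CharP L p] (u : Lˣ) :
    cls L p u = 0 ↔ (u : L) ∈ pPow (L := L) p := by
  rw [cls_eq_zero_iff, mem_pPow]

/-- `[u] = [v]` iff `u / v ∈ L^p`. -/
theorem cls_eq_iff_div_mem_pPow [CharP L p] (u v : Lˣ) :
    cls L p u = cls L p v ↔ (u : L) / (v : L) ∈ pPow (L := L) p := by
  rw [cls_eq_iff, mem_pPow]
  constructor
  · rintro ⟨b, hb⟩
    exact ⟨b, by rw [hb]; field_simp⟩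
  · rintro ⟨b, hb⟩
    exact ⟨b, by rw [hb]; field_simp⟩

/-- If `Θ[u] = [x]` then `u ∈ K^p ↔ x ∈ L^p`. -/
theorem mem_pPow_iff_of_map_cls [CharP K p] [CharP L p] (Θ : KOne K p ≃ₗ[ZMod p] KOne L p)
    {u : Kˣ} {x : Lˣ} (h : Θ (cls K p u) = cls L p x) :
    (u : K) ∈ pPow (L := K) p ↔ (x : L) ∈ pPow (L := L) p := by
  rw [← cls_eq_zero_iff_mem_pPow, ← cls_eq_zero_iff_mem_pPow, ← h]
  exact (LinearEquiv.map_eq_zero_iff Θ).symm

variable [CharP L p]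

/-- **(I)**: `[u] ⊗ [v] ∈ S_L` and `u ∉ L^p` imply `v ∈ L^p(u)`. -/
theorem mem_pAdj_of_tmul_mem_steinberg {u v : Lˣ}
    (h : cls L p u ⊗ₜ[ZMod p] cls L p v ∈ steinberg L p) (hu : (u : L) ∉ pPow (L := L) p) :
    (v : L) ∈ pAdj p (u : L) := by
  by_contra hv
  obtain ⟨D₁, D₂, h1x, h1y, h2x, h2y⟩ :=
    exists_derivation_pair p (x := (u : L)) (y := (v : L)) ⟨hu, hv⟩
  refine tmul_not_mem_steinberg_of_derivation D₁ D₂ ?_ h
  rw [h1x, h1y, h2x, h2y]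
  simp

variable [CharP K p]

/-- **(St1)+(Tr)+(I)**: if `Θ[f] = [x]` with `x ∉ L^p`, `c` is a non-zero `p`-th power and
`Θ[f + c] = [φ]`, then `φ ∈ L^p(x)`. -/
theorem mem_pAdj_of_map_add_pow {Θ : KOne K p ≃ₗ[ZMod p] KOne L p} (hΘ : IsCompatible Θ)
    {f c b : K} (hf : f ≠ 0) (hc : c ≠ 0) (hcb : c = b ^ p) (hfc : f + c ≠ 0) {x φ : Lˣ}
    (hx : Θ (cls K p (Units.mk0 f hf)) = cls L p x) (hxp : (x : L) ∉ pPow (L := L) p)
    (hφ : Θ (cls K p (Units.mk0 (f + c) hfc)) = cls L p φ) : (φ : L) ∈ pAdj p (x : L) := by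
  have h1 := isCompatible_tmul_mem hΘ (tmul_add_pow_mem_steinberg (p := p) hf hc hcb hfc)
  rw [hx, hφ] at h1
  exact mem_pAdj_of_tmul_mem_steinberg h1 hxp

/-- **(St2)+(Tr)+(I)**: if `Θ[a] = [φ]`, `Θ[b] = [γ]`, `Θ[a + b] = [h]` and `γ/φ ∉ L^p`, then
`h/φ ∈ L^p(γ/φ)`. -/
theorem div_mem_pAdj_of_map_add {Θ : KOne K p ≃ₗ[ZMod p] KOne L p} (hΘ : IsCompatible Θ)
    {a b : K} (ha : a ≠ 0) (hb : b ≠ 0) (hab : a + b ≠ 0) {φ γ h : Lˣ}
    (hφ : Θ (cls K p (Units.mk0 a ha)) = cls L p φ)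
    (hγ : Θ (cls K p (Units.mk0 b hb)) = cls L p γ)
    (hh : Θ (cls K p (Units.mk0 (a + b) hab)) = cls L p h)
    (hne : (γ : L) / (φ : L) ∉ pPow (L := L) p) :
    (h : L) / (φ : L) ∈ pAdj p ((γ : L) / (φ : L)) := by
  have h1 := isCompatible_tmul_mem hΘ (tmul_div_mem_steinberg (p := p) ha hb hab)
  rw [cls_mk0_div hb ha, cls_mk0_div hab ha, map_sub, map_sub, hφ, hγ, hh, ← cls_div, ← cls_div]
    at h1
  have h2 := mem_pAdj_of_tmul_mem_steinberg (u := γ / φ) (v := h / φ) h1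
    (by rwa [Units.val_div_eq_div_val])
  rwa [Units.val_div_eq_div_val, Units.val_div_eq_div_val] at h2

end Crest.Agent.Helper67.S0010
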