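import Crest.Prelude.Def_MilnorK

/-!
# S0010 (row 9), work package WP-K: the `KOne` interface

Elementary facts about `KOne F p = Fˣ / (Fˣ)^p` (written additively), the classes `cls F p u`,
the Steinberg submodule and compatible linear equivalences, plus the lift of a bi-additive map
on units to a linear map on `KOne F p ⊗ KOne F p`.
-/

set_option autoImplicit false
set_option linter.unusedSectionVars false

open Crest.NumberTheoryR.MilnorK
open scoped TensorProduct

namespace Crest.Agent.Helper67.S0010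

variable {F : Type*} [Field F] {p : ℕ}

/-! ### (K1) classes -/

theorem cls_one : cls F p (1 : Fˣ) = 0 := rfl

theorem cls_mul (u v : Fˣ) : cls F p (u * v) = cls F p u + cls F p v := rfl

theorem cls_inv (u : Fˣ) : cls F p u⁻¹ = - cls F p u := rfl

theorem cls_div (u v : Fˣ) : cls F p (u / v) = cls F p u - cls F p v := by
  rw [div_eq_mul_inv, cls_mul, cls_inv, sub_eq_add_neg]

theorem cls_pow (u : Fˣ) (n : ℕ) : cls F p (u ^ n) = n • cls F p u := by
  induction n with
  | zero => simp [cls_one]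
  | succ n ih => rw [pow_succ, cls_mul, ih, succ_nsmul]

theorem cls_surjective : Function.Surjective (cls F p) := by
  intro ξ
  obtain ⟨a, rfl⟩ := QuotientAddGroup.mk_surjective ξ
  exact ⟨Additive.toMul a, rfl⟩

/-- `[u] = [v]` iff `u = v * w^p` for a unit `w`. -/
theorem cls_eq_iff_unit (u v : Fˣ) : cls F p u = cls F p v ↔ ∃ w : Fˣ, u = v * w ^ p := by
  show (QuotientAddGroup.mk (Additive.ofMul u) : Additive Fˣ ⧸ pMultiples F p)
      = QuotientAddGroup.mk (Additive.ofMul v) ↔ _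
  rw [QuotientAddGroup.eq]
  constructor
  · rintro ⟨a, ha⟩
    refine ⟨(Additive.toMul a)⁻¹, ?_⟩
    have h2 : (Additive.toMul a) ^ p = u⁻¹ * v := by
      have := congrArg Additive.toMul ha
      simpa using this
    rw [inv_pow, h2, mul_inv_rev, inv_inv, mul_inv_cancel_left]
  · rintro ⟨w, rfl⟩
    refine ⟨Additive.ofMul w⁻¹, ?_⟩
    show Additive.ofMul (w⁻¹ ^ p) = Additive.ofMul ((v * w ^ p)⁻¹ * v)
    congr 1
    rw [mul_inv_rev, inv_pow, inv_mul_cancel_right]

theorem cls_eq_zero_iff_unit (u : Fˣ) : cls F p u = 0 ↔ ∃ w : Fˣ, w ^ p = u := by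
  rw [← cls_one, cls_eq_iff_unit]
  constructor
  · rintro ⟨w, rfl⟩; exact ⟨w, by simp⟩
  · rintro ⟨w, rfl⟩; exact ⟨w, by simp⟩

section prime

variable [hp : Fact p.Prime]

/-- `[u] = [v]` iff `u = v * b^p` for some `b` in the field. -/
theorem cls_eq_iff (u v : Fˣ) : cls F p u = cls F p v ↔ ∃ b : F, (u : F) = v * b ^ p := by
  rw [cls_eq_iff_unit]
  constructor
  · rintro ⟨w, rfl⟩; exact ⟨(w : F), by simp⟩
  · rintro ⟨b, hb⟩
    have hb0 : b ≠ 0 := by
      rintro rfl
      rw [zero_pow hp.out.ne_zero, mul_zero] at hb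
      exact u.ne_zero hb
    exact ⟨Units.mk0 b hb0, Units.ext (by simpa using hb)⟩

/-- `[u] = 0` iff `u` is a `p`-th power in the field. -/
theorem cls_eq_zero_iff (u : Fˣ) : cls F p u = 0 ↔ ∃ b : F, b ^ p = (u : F) := by
  rw [← cls_one, cls_eq_iff]
  constructor
  · rintro ⟨b, hb⟩; exact ⟨b, by simpa using hb.symm⟩
  · rintro ⟨b, hb⟩; exact ⟨b, by simpa using hb.symm⟩

theorem cls_mk0_eq_of_eq_mul_pow {a a' b : F} (ha : a ≠ 0) (ha' : a' ≠ 0) (h : a = a' * b ^ p) :
    cls F p (Units.mk0 a ha) = cls F p (Units.mk0 a' ha') :=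
  (cls_eq_iff _ _).2 ⟨b, by simpa using h⟩

/-- A non-zero `p`-th power has class zero. -/
theorem cls_of_pow {c b : F} (hc : c ≠ 0) (h : c = b ^ p) : cls F p (Units.mk0 c hc) = 0 :=
  (cls_eq_zero_iff _).2 ⟨b, by simpa using h.symm⟩

theorem natCast_smul_cls (n : ℕ) (u : Fˣ) : (n : ZMod p) • cls F p u = cls F p (u ^ n) := by
  rw [cls_pow, Nat.cast_smul_eq_nsmul]

theorem smul_cls (c : ZMod p) (u : Fˣ) : c • cls F p u = cls F p (u ^ c.val) := by
  rw [← natCast_smul_cls, ZMod.natCast_zmod_val]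

theorem cls_mk0_mul {a b : F} (ha : a ≠ 0) (hb : b ≠ 0) :
    cls F p (Units.mk0 (a * b) (mul_ne_zero ha hb)) =
      cls F p (Units.mk0 a ha) + cls F p (Units.mk0 b hb) := by
  rw [← cls_mul]; congr 1; ext; simp

theorem cls_mk0_inv {a : F} (ha : a ≠ 0) :
    cls F p (Units.mk0 a⁻¹ (inv_ne_zero ha)) = - cls F p (Units.mk0 a ha) := by
  rw [← cls_inv]; congr 1; ext; simp

theorem cls_mk0_div {a b : F} (ha : a ≠ 0) (hb : b ≠ 0) :
    cls F p (Units.mk0 (a / b) (div_ne_zero ha hb)) =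
      cls F p (Units.mk0 a ha) - cls F p (Units.mk0 b hb) := by
  rw [← cls_div]; congr 1; ext; simp

theorem cls_mk0_pow {a : F} (ha : a ≠ 0) (n : ℕ) :
    cls F p (Units.mk0 (a ^ n) (pow_ne_zero n ha)) = n • cls F p (Units.mk0 a ha) := by
  rw [← cls_pow]; congr 1; ext; simp

theorem cls_mk0_coe (u : Fˣ) : cls F p (Units.mk0 (u : F) u.ne_zero) = cls F p u := by
  congr 1; ext; simp

section charp

variable [CharP F p]

theorem cls_neg_one : cls F p (-1 : Fˣ) = 0 :=
  (cls_eq_zero_iff _).2 ⟨-1, by simpa using neg_one_pow_char F p⟩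

theorem cls_neg (u : Fˣ) : cls F p (-u) = cls F p u := by
  have : -u = (-1) * u := by simp
  rw [this, cls_mul, cls_neg_one]; exact zero_add (cls F p u)

theorem cls_mk0_neg {a : F} (ha : a ≠ 0) :
    cls F p (Units.mk0 (-a) (neg_ne_zero.2 ha)) = cls F p (Units.mk0 a ha) :=
  cls_mk0_eq_of_eq_mul_pow _ _ (b := -1) (by rw [neg_one_pow_char F p]; ring)

end charp

end prime

/-! ### (K2) Steinberg pairs -/

section steinberg

variable [hp : Fact p.Prime]

/-- (St0) the generators. -/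
theorem tmul_mem_steinberg (f : F) (hf : f ≠ 0) (hf1 : 1 - f ≠ 0) :
    cls F p (Units.mk0 f hf) ⊗ₜ[ZMod p] cls F p (Units.mk0 (1 - f) hf1) ∈ steinberg F p :=
  Submodule.subset_span ⟨f, hf, hf1, rfl⟩

variable [CharP F p]

/-- (St1) `[f] ⊗ [f + c] ∈ S` for a non-zero `p`-th power `c`. -/
theorem tmul_add_pow_mem_steinberg {f c b : F} (hf : f ≠ 0) (hc : c ≠ 0) (hcb : c = b ^ p)
    (hfc : f + c ≠ 0) :
    cls F p (Units.mk0 f hf) ⊗ₜ[ZMod p] cls F p (Units.mk0 (f + c) hfc) ∈ steinberg F p := by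
  have hb : b ≠ 0 := by rintro rfl; rw [zero_pow hp.out.ne_zero] at hcb; exact hc hcb
  have hg : -f / c ≠ 0 := div_ne_zero (neg_ne_zero.2 hf) hc
  have hg1 : 1 - (-f / c) ≠ 0 := by
    have : 1 - (-f / c) = (f + c) / c := by field_simp; ring
    rw [this]; exact div_ne_zero hfc hc
  have key := tmul_mem_steinberg (p := p) (-f / c) hg hg1
  have e1 : cls F p (Units.mk0 (-f / c) hg) = cls F p (Units.mk0 f hf) :=
    cls_mk0_eq_of_eq_mul_pow _ _ (b := -1 / b) (by
      rw [div_pow, neg_one_pow_char F p, ← hcb]; field_simp)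
  have e2 : cls F p (Units.mk0 (1 - (-f / c)) hg1) = cls F p (Units.mk0 (f + c) hfc) :=
    cls_mk0_eq_of_eq_mul_pow _ _ (b := 1 / b) (by
      rw [div_pow, one_pow, ← hcb]; field_simp; ring)
  rwa [e1, e2] at key

/-- (St2) `[b/a] ⊗ [(a+b)/a] ∈ S`. -/
theorem tmul_div_mem_steinberg {a b : F} (ha : a ≠ 0) (hb : b ≠ 0) (hab : a + b ≠ 0) :
    cls F p (Units.mk0 (b / a) (div_ne_zero hb ha)) ⊗ₜ[ZMod p]
      cls F p (Units.mk0 ((a + b) / a) (div_ne_zero hab ha)) ∈ steinberg F p := by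
  have hg : -(b / a) ≠ 0 := neg_ne_zero.2 (div_ne_zero hb ha)
  have hg1 : 1 - (-(b / a)) ≠ 0 := by
    have : 1 - (-(b / a)) = (a + b) / a := by field_simp; ring
    rw [this]; exact div_ne_zero hab ha
  have key := tmul_mem_steinberg (p := p) (-(b / a)) hg hg1
  have e1 : cls F p (Units.mk0 (-(b / a)) hg) = cls F p (Units.mk0 (b / a) (div_ne_zero hb ha)) :=
    cls_mk0_neg _
  have e2 : cls F p (Units.mk0 (1 - (-(b / a))) hg1)
      = cls F p (Units.mk0 ((a + b) / a) (div_ne_zero hab ha)) := by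
    congr 1; ext; simp; field_simp
  rwa [e1, e2] at key

end steinberg

/-! ### (K3) compatible equivalences -/

section compatible

variable {K L : Type*} [Field K] [Field L]

/-- (Tr) a compatible `Θ` maps Steinberg elements to Steinberg elements. -/
theorem isCompatible_map_mem {Θ : KOne K p ≃ₗ[ZMod p] KOne L p} (h : IsCompatible Θ)
    {t : KOne K p ⊗[ZMod p] KOne K p} (ht : t ∈ steinberg K p) :
    TensorProduct.map Θ.toLinearMap Θ.toLinearMap t ∈ steinberg L p := by
  have h' : (steinberg K p).map (TensorProduct.map Θ.toLinearMap Θ.toLinearMap) = steinberg L p := h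
  rw [← h']
  exact Submodule.mem_map_of_mem ht

/-- (Tr) on pure tensors. -/
theorem isCompatible_tmul_mem {Θ : KOne K p ≃ₗ[ZMod p] KOne L p} (h : IsCompatible Θ)
    {ξ η : KOne K p} (ht : ξ ⊗ₜ[ZMod p] η ∈ steinberg K p) :
    Θ ξ ⊗ₜ[ZMod p] Θ η ∈ steinberg L p := by
  have := isCompatible_map_mem h ht
  simpa using this

theorem isCompatible_symm {Θ : KOne K p ≃ₗ[ZMod p] KOne L p} (h : IsCompatible Θ) :
    IsCompatible Θ.symm := by
  have h' : (steinberg K p).map (TensorProduct.map Θ.toLinearMap Θ.toLinearMap) = steinberg L p := h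
  show (steinberg L p).map (TensorProduct.map Θ.symm.toLinearMap Θ.symm.toLinearMap)
      = steinberg K p
  rw [← h', ← Submodule.map_comp, ← TensorProduct.map_comp]
  simp

/-- `Θ` scaled by a non-zero scalar. -/
noncomputable def smulEquiv [Fact p.Prime] (c : ZMod p) (hc : c ≠ 0)
    (Θ : KOne K p ≃ₗ[ZMod p] KOne L p) : KOne K p ≃ₗ[ZMod p] KOne L p :=
  Θ.trans (LinearEquiv.smulOfNeZero (ZMod p) (KOne L p) c hc)

@[simp] theorem smulEquiv_apply [Fact p.Prime] (c : ZMod p) (hc : c ≠ 0)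
    (Θ : KOne K p ≃ₗ[ZMod p] KOne L p) (ξ : KOne K p) : smulEquiv c hc Θ ξ = c • Θ ξ := rfl

theorem smulEquiv_toLinearMap [Fact p.Prime] (c : ZMod p) (hc : c ≠ 0)
    (Θ : KOne K p ≃ₗ[ZMod p] KOne L p) : (smulEquiv c hc Θ).toLinearMap = c • Θ.toLinearMap := by
  ext ξ; rfl

theorem isCompatible_smulEquiv [Fact p.Prime] {Θ : KOne K p ≃ₗ[ZMod p] KOne L p}
    (h : IsCompatible Θ) (c : ZMod p) (hc : c ≠ 0) : IsCompatible (smulEquiv c hc Θ) := by
  have h' : (steinberg K p).map (TensorProduct.map Θ.toLinearMap Θ.toLinearMap) = steinberg L p := h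
  show (steinberg K p).map (TensorProduct.map (smulEquiv c hc Θ).toLinearMap
      (smulEquiv c hc Θ).toLinearMap) = steinberg L p
  have hmap : TensorProduct.map (smulEquiv c hc Θ).toLinearMap (smulEquiv c hc Θ).toLinearMap
      = (c * c) • TensorProduct.map Θ.toLinearMap Θ.toLinearMap := by
    rw [smulEquiv_toLinearMap, TensorProduct.map_smul_left, TensorProduct.map_smul_right, smul_smul]
  have hcc : c * c ≠ 0 := mul_ne_zero hc hc
  rw [hmap, ← h']
  apply le_antisymm
  · rintro _ ⟨t, ht, rfl⟩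
    exact ⟨(c * c) • t, Submodule.smul_mem _ _ ht, by simp⟩
  · rintro _ ⟨t, ht, rfl⟩
    refine ⟨(c * c)⁻¹ • t, Submodule.smul_mem _ _ ht, ?_⟩
    rw [LinearMap.smul_apply, map_smul, smul_smul, mul_inv_cancel₀ hcc, one_smul]

end compatible

/-! ### (K4) lifting bi-additive maps on units -/

section lift

variable [hp : Fact p.Prime] {A : Type*} [AddCommGroup A] [Module (ZMod p) A]

private theorem p_nsmul_eq_zero (a : A) : p • a = 0 := by
  rw [← Nat.cast_smul_eq_nsmul (ZMod p), ZMod.natCast_self, zero_smul]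

private theorem biadd_one_left (β : Fˣ → Fˣ → A)
    (hl : ∀ u u' v, β (u * u') v = β u v + β u' v) (v : Fˣ) : β 1 v = 0 := by
  have := hl 1 1 v
  rw [mul_one] at this
  simpa using this

private theorem biadd_pow_left (β : Fˣ → Fˣ → A)
    (hl : ∀ u u' v, β (u * u') v = β u v + β u' v) (u v : Fˣ) (n : ℕ) :
    β (u ^ n) v = n • β u v := by
  induction n with
  | zero => simp [biadd_one_left β hl]
  | succ n ih => rw [pow_succ, hl, ih, succ_nsmul]

private theorem biadd_congr_left (β : Fˣ → Fˣ → A)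
    (hl : ∀ u u' v, β (u * u') v = β u v + β u' v) {u u' : Fˣ} (h : cls F p u = cls F p u')
    (v : Fˣ) : β u v = β u' v := by
  obtain ⟨w, rfl⟩ := (cls_eq_iff_unit u u').1 h
  rw [hl, biadd_pow_left β hl, p_nsmul_eq_zero, add_zero]

/-- (K4) A bi-additive map on units with values in a `ZMod p`-module induces a linear map on
`KOne F p ⊗ KOne F p`. -/
theorem exists_lift (β : Fˣ → Fˣ → A)
    (hl : ∀ u u' v, β (u * u') v = β u v + β u' v)
    (hr : ∀ u v v', β u (v * v') = β u v + β u v') :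
    ∃ B : KOne F p ⊗[ZMod p] KOne F p →ₗ[ZMod p] A,
      ∀ u v, B (cls F p u ⊗ₜ[ZMod p] cls F p v) = β u v := by
  classical
  let rep : KOne F p → Fˣ := Function.surjInv (cls_surjective (F := F) (p := p))
  have hrep : ∀ ξ, cls F p (rep ξ) = ξ := Function.surjInv_eq _
  have hl' : ∀ v v' u, (fun a b => β b a) (v * v') u = (fun a b => β b a) v u
      + (fun a b => β b a) v' u := fun v v' u => hr u v v'
  let f : KOne F p → KOne F p → A := fun ξ η => β (rep ξ) (rep η)
  have hf : ∀ u v, f (cls F p u) (cls F p v) = β u v := by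
    intro u v
    show β (rep (cls F p u)) (rep (cls F p v)) = β u v
    rw [biadd_congr_left β hl (hrep (cls F p u)) _]
    exact biadd_congr_left (fun a b => β b a) hl' (hrep (cls F p v)) u
  have hadd1 : ∀ ξ ξ' η, f (ξ + ξ') η = f ξ η + f ξ' η := by
    intro ξ ξ' η
    obtain ⟨u, rfl⟩ := cls_surjective ξ
    obtain ⟨u', rfl⟩ := cls_surjective ξ'
    obtain ⟨v, rfl⟩ := cls_surjective η
    rw [← cls_mul, hf, hf, hf, hl]
  have hadd2 : ∀ ξ η η', f ξ (η + η') = f ξ η + f ξ η' := by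
    intro ξ η η'
    obtain ⟨u, rfl⟩ := cls_surjective ξ
    obtain ⟨v, rfl⟩ := cls_surjective η
    obtain ⟨v', rfl⟩ := cls_surjective η'
    rw [← cls_mul, hf, hf, hf, hr]
  have hsmul1 : ∀ (c : ZMod p) ξ η, f (c • ξ) η = c • f ξ η := by
    intro c ξ η
    exact ZMod.map_smul (AddMonoidHom.mk' (fun ξ => f ξ η) (fun a b => hadd1 a b η)) c ξ
  have hsmul2 : ∀ (c : ZMod p) ξ η, f ξ (c • η) = c • f ξ η := by
    intro c ξ η
    exact ZMod.map_smul (AddMonoidHom.mk' (fun η => f ξ η) (fun a b => hadd2 ξ a b)) c η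
  refine ⟨TensorProduct.lift (LinearMap.mk₂ (ZMod p) f hadd1 hsmul1 hadd2 hsmul2), ?_⟩
  intro u v
  rw [TensorProduct.lift.tmul, LinearMap.mk₂_apply, hf]

/-- (K4') A bi-additive map on units that kills all pairs `(f, 1 - f)` vanishes on every pure
tensor lying in the Steinberg submodule. -/
theorem eq_zero_of_tmul_mem_steinberg (β : Fˣ → Fˣ → A)
    (hl : ∀ u u' v, β (u * u') v = β u v + β u' v)
    (hr : ∀ u v v', β u (v * v') = β u v + β u v')
    (hst : ∀ (f : F) (hf : f ≠ 0) (hf1 : 1 - f ≠ 0), β (Units.mk0 f hf) (Units.mk0 (1 - f) hf1) = 0)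
    {u v : Fˣ} (h : cls F p u ⊗ₜ[ZMod p] cls F p v ∈ steinberg F p) : β u v = 0 := by
  obtain ⟨B, hB⟩ := exists_lift (p := p) β hl hr
  have hle : steinberg F p ≤ LinearMap.ker B := by
    refine Submodule.span_le.2 ?_
    rintro _ ⟨f, hf, hf1, rfl⟩
    show B _ = 0
    rw [hB, hst]
  have := hle h
  rw [LinearMap.mem_ker, hB] at this
  exact this

end lift

/-! ### (I), abstract form -/

section injectivity

variable {L : Type*} [Field L] [hp : Fact p.Prime] [CharP L p]

private theorem jac_mul_left (D₁ D₂ : Derivation ℤ L L) {a a' b : L} (ha : a ≠ 0) (ha' : a' ≠ 0)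
    (hb : b ≠ 0) :
    (D₁ (a * a') * D₂ b - D₂ (a * a') * D₁ b) / (a * a' * b) =
      (D₁ a * D₂ b - D₂ a * D₁ b) / (a * b) + (D₁ a' * D₂ b - D₂ a' * D₁ b) / (a' * b) := by
  rw [Derivation.leibniz, Derivation.leibniz]
  simp only [smul_eq_mul]
  field_simp
  ring

private theorem jac_mul_right (D₁ D₂ : Derivation ℤ L L) {a b b' : L} (ha : a ≠ 0) (hb : b ≠ 0)
    (hb' : b' ≠ 0) :
    (D₁ a * D₂ (b * b') - D₂ a * D₁ (b * b')) / (a * (b * b')) =
      (D₁ a * D₂ b - D₂ a * D₁ b) / (a * b) + (D₁ a * D₂ b' - D₂ a * D₁ b') / (a * b') := by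
  rw [Derivation.leibniz, Derivation.leibniz]
  simp only [smul_eq_mul]
  field_simp
  ring

/-- (I), abstract form: if two derivations of `L` have non-vanishing "Jacobian" on the pair
`(u, v)`, then `[u] ⊗ [v]` is not in the Steinberg submodule. -/
theorem tmul_not_mem_steinberg_of_derivation (D₁ D₂ : Derivation ℤ L L) {u v : Lˣ}
    (hne : D₁ (u : L) * D₂ (v : L) - D₂ (u : L) * D₁ (v : L) ≠ 0) :
    cls L p u ⊗ₜ[ZMod p] cls L p v ∉ steinberg L p := by
  intro hmem
  let _inst : Module (ZMod p) L := AddCommGroup.zmodModule (n := p) (fun x => by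
    rw [nsmul_eq_mul, CharP.cast_eq_zero, zero_mul])
  have h0 := eq_zero_of_tmul_mem_steinberg (p := p) (A := L)
    (fun a b : Lˣ => (D₁ (a : L) * D₂ (b : L) - D₂ (a : L) * D₁ (b : L)) / ((a : L) * (b : L)))
    (fun a a' b => by
      show (D₁ ((a * a' : Lˣ) : L) * D₂ (b : L) - D₂ ((a * a' : Lˣ) : L) * D₁ (b : L))
        / (((a * a' : Lˣ) : L) * (b : L)) = _
      rw [Units.val_mul]
      exact jac_mul_left D₁ D₂ a.ne_zero a'.ne_zero b.ne_zero)
    (fun a b b' => by
      show (D₁ (a : L) * D₂ ((b * b' : Lˣ) : L) - D₂ (a : L) * D₁ ((b * b' : Lˣ) : L))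
        / ((a : L) * ((b * b' : Lˣ) : L)) = _
      rw [Units.val_mul]
      exact jac_mul_right D₁ D₂ a.ne_zero b.ne_zero b'.ne_zero)
    (fun f hf hf1 => by
      show (D₁ f * D₂ (1 - f) - D₂ f * D₁ (1 - f)) / (f * (1 - f)) = 0
      rw [map_sub, map_sub, Derivation.map_one_eq_zero, Derivation.map_one_eq_zero]
      ring)
    hmem
  have h1 : (D₁ (u : L) * D₂ (v : L) - D₂ (u : L) * D₁ (v : L)) / ((u : L) * (v : L)) = 0 := h0
  rw [div_eq_zero_iff] at h1
  rcases h1 with h1 | h1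
  · exact hne h1
  · exact mul_ne_zero u.ne_zero v.ne_zero h1

end injectivity

end Crest.Agent.Helper67.S0010
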